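import Vale.Agent.P139.R2.H240.NumQ
import Vale.Agent.P139.R2.H182.FinQ

/-!
# P139, stage 2 (row S4b): `NumQ` is proved
-/

set_option autoImplicit false

namespace Vale.Agent.P139.BN

/-- **Row S4b.** The numerical inequalities. -/
theorem numQ : NumQ := fun a aH m q _A₁ _S _Cd _s₀ hA₁ hS hCd _ => numericsQ a aH m q hA₁ hS hCd

end Vale.Agent.P139.BN
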