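import Vale.Agent.P139.R2.H240.Tay

/-!
# P139, stage 2: the constant of the Taylor bounds is polynomial in `ρ + ρ⁻¹`
-/

set_option autoImplicit false

namespace Vale.Agent.P139.BN.Tay

/-- The base constant of `C0_le`. -/
noncomputable def A0c (m : ℕ) : ℝ := 10 * ((m : ℝ) + 1) * ((m : ℝ) + 2) ^ (m + 1) * 3 ^ (2 * m + 2)

lemma one_le_A0c (m : ℕ) : 1 ≤ A0c m := by
  have hm : (0 : ℝ) ≤ m := Nat.cast_nonneg m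
  unfold A0c
  exact one_le_mul_of_one_le_of_one_le (one_le_mul_of_one_le_of_one_le (by linarith)
    (one_le_pow₀ (by linarith))) (one_le_pow₀ (by norm_num))

lemma two_le_add_inv (ρ : ℝ) (hρ : 0 < ρ) : 2 ≤ ρ + ρ⁻¹ := by
  have h : ρ * ρ⁻¹ = 1 := mul_inv_cancel₀ hρ.ne'
  have h2 : 0 < ρ⁻¹ := inv_pos.2 hρ
  nlinarith [sq_nonneg (ρ - ρ⁻¹)]

/-- `C0 m ρ` is polynomial in `ρ + ρ⁻¹`. -/
theorem C0_le (m : ℕ) (ρ : ℝ) (hρ : 0 < ρ) :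
    C0 m ρ ≤ (A0c m * (ρ + ρ⁻¹)) ^ (2 * m + 4) := by
  have hm : (0 : ℝ) ≤ m := Nat.cast_nonneg m
  have hi : 0 < ρ⁻¹ := inv_pos.2 hρ
  obtain ⟨s, hs⟩ : ∃ s : ℝ, s = ρ + ρ⁻¹ := ⟨_, rfl⟩
  have hs2 : 2 ≤ s := by rw [hs]; exact two_le_add_inv ρ hρ
  have h1 : 1 + 2 * ρ ≤ 3 * s := by linarith
  have h2 : 1 + 4 / ρ ^ 2 ≤ 5 * s ^ 2 := by
    have h3 : 4 / ρ ^ 2 = 4 * (ρ⁻¹) ^ 2 := by rw [inv_pow]; rfl
    rw [h3]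
    have h4 : ρ⁻¹ ≤ s := by linarith
    have h5 : (ρ⁻¹) ^ 2 ≤ s ^ 2 := pow_le_pow_left₀ hi.le h4 2
    nlinarith
  have h0 : (0 : ℝ) ≤ 1 + 4 / ρ ^ 2 := by positivity
  rw [← hs]
  unfold C0
  calc 2 * ((m : ℝ) + 1) * ((m : ℝ) + 2) ^ (m + 1) * (1 + 2 * ρ) ^ (2 * m + 2) * (1 + 4 / ρ ^ 2)
      ≤ 2 * ((m : ℝ) + 1) * ((m : ℝ) + 2) ^ (m + 1) * (3 * s) ^ (2 * m + 2) * (5 * s ^ 2) := by
        gcongr
    _ = A0c m * s ^ (2 * m + 4) := by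
        rw [mul_pow]
        unfold A0c
        ring
    _ ≤ A0c m ^ (2 * m + 4) * s ^ (2 * m + 4) := by
        refine mul_le_mul_of_nonneg_right ?_ (by positivity)
        exact le_self_pow₀ (one_le_A0c m) (by omega)
    _ = (A0c m * s) ^ (2 * m + 4) := (mul_pow _ _ _).symm

end Vale.Agent.P139.BN.Tay
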