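import Vale.Agent.P139.R2.H182.FinB

/-!
# P139, stage 2 (row S4b): the numerical inequalities, uniformly for `c ∈ [2^(-N), 2^N]`
-/

set_option autoImplicit false

open Finset Filter Topology

namespace Vale.Agent.P139.BN.NumQ

theorem sq_two_pow (N : ℕ) : ((2 : ℝ) ^ N) ^ 2 = 2 ^ (2 * N) := by
  rw [← pow_mul, mul_comm]

/-- Bounds of `ρ = sqrt (c² + e)`. -/
theorem rho_bd {N : ℕ} {c e : ℝ} (hc1 : ((2 : ℝ) ^ N)⁻¹ ≤ c) (hc2 : c ≤ 2 ^ N) (he : 0 ≤ e)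
    (he1 : e ≤ 1) :
    0 < Real.sqrt (c ^ 2 + e) ∧
      Real.sqrt (c ^ 2 + e) + (Real.sqrt (c ^ 2 + e))⁻¹ ≤ 2 ^ (N + 2) := by
  have hN : (0 : ℝ) < 2 ^ N := by positivity
  have hN1 : (1 : ℝ) ≤ 2 ^ N := one_le_pow₀ (by norm_num)
  have hc : 0 < c := lt_of_lt_of_le (inv_pos.2 hN) hc1
  have h1 : c ≤ Real.sqrt (c ^ 2 + e) := Real.le_sqrt_of_sq_le (by linarith)
  have h2 : Real.sqrt (c ^ 2 + e) ≤ 2 * 2 ^ N := by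
    rw [Real.sqrt_le_left (by positivity)]
    nlinarith
  have h3 : (Real.sqrt (c ^ 2 + e))⁻¹ ≤ 2 ^ N := by
    rw [inv_le_comm₀ (by linarith) hN]
    linarith
  refine ⟨by linarith, ?_⟩
  rw [pow_add]
  norm_num
  linarith

theorem one_le_A {A₁ ρ : ℝ} (hA₁ : 1 ≤ A₁) (hρ : 0 < ρ) (n : ℕ) :
    1 ≤ (A₁ * (ρ + ρ⁻¹)) ^ n := by
  have h : ρ * ρ⁻¹ = 1 := mul_inv_cancel₀ hρ.ne'
  have h2 : 0 < ρ⁻¹ := inv_pos.2 hρ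
  have h3 : 1 ≤ ρ + ρ⁻¹ := by nlinarith [sq_nonneg (ρ - ρ⁻¹)]
  exact one_le_pow₀ (one_le_mul_of_one_le_of_one_le hA₁ h3)

theorem A_le {A₁ ρ : ℝ} {b1 aH N : ℕ} (hN : 1 ≤ N) (hA₁ : 1 ≤ A₁) (hb1 : A₁ ≤ 2 ^ b1)
    (hρ : 0 < ρ) (hρ2 : ρ + ρ⁻¹ ≤ 2 ^ (N + 2)) :
    (A₁ * (ρ + ρ⁻¹)) ^ (aH * (N + 1)) ≤ 2 ^ ((2 * aH * (b1 + 3)) * N ^ 2) := by
  have hi : 0 < ρ⁻¹ := inv_pos.2 hρ
  calc (A₁ * (ρ + ρ⁻¹)) ^ (aH * (N + 1)) ≤ (2 ^ b1 * 2 ^ (N + 2)) ^ (aH * (N + 1)) := by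
        gcongr
    _ = 2 ^ ((b1 + (N + 2)) * (aH * (N + 1))) := by rw [← pow_add, ← pow_mul]
    _ ≤ 2 ^ ((2 * aH * (b1 + 3)) * N ^ 2) := by
        apply pow_le_pow_right₀ (by norm_num)
        have h1 : b1 + (N + 2) ≤ (b1 + 3) * N := by nlinarith
        have h2 : aH * (N + 1) ≤ aH * (2 * N) := Nat.mul_le_mul_left aH (by omega)
        calc (b1 + (N + 2)) * (aH * (N + 1)) ≤ ((b1 + 3) * N) * (aH * (2 * N)) :=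
              Nat.mul_le_mul h1 h2
          _ = _ := by ring

/-- The constant is at most `2 ^ (b N ^ 8)`. -/
theorem cst_le (a m q c2 : ℕ) {S : ℝ} (hS : 1 ≤ S) :
    ∃ b : ℕ, ∀ N : ℕ, m + 3 ≤ N → ∀ A : ℝ, 1 ≤ A → A ≤ 2 ^ (c2 * N ^ 2) →
      Cst a (3 * N + 2 * m + 6) A (((3 * N + 2 * m + 6 : ℕ) : ℝ) ^ (2 * q)) S
        ((2 : ℝ) ^ (N ^ 6))⁻¹ ≤ 2 ^ (b * N ^ 8) := by
  obtain ⟨b2, hb2⟩ := exists_le_two_pow S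
  refine ⟨36 * a * (5 + c2 + 8 * q + b2 + 1), fun N hN A hA1 hA => ?_⟩
  have hN1 : 1 ≤ N := by omega
  have hN1' : (1 : ℝ) ≤ N := by exact_mod_cast hN1
  set J : ℕ := 3 * N + 2 * m + 6 with hJ
  have hJN : J ≤ 5 * N := by omega
  have hJR : (J : ℝ) ≤ 5 * N := by exact_mod_cast hJN
  have hJ1 : (1 : ℝ) ≤ J := by
    have : 1 ≤ J := by omega
    exact_mod_cast this
  have hNt := nat_le_two_pow N
  -- the factors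
  have e1 : 2 * (J : ℝ) ≤ 2 ^ (5 * N) := by
    have : (10 : ℝ) ≤ 2 ^ (4 * N) := by
      calc (10 : ℝ) ≤ 2 ^ 4 := by norm_num
        _ ≤ 2 ^ (4 * N) := pow_le_pow_right₀ (by norm_num) (by omega)
    calc 2 * (J : ℝ) ≤ 10 * N := by linarith
      _ ≤ 2 ^ (4 * N) * 2 ^ N := by gcongr
      _ = 2 ^ (5 * N) := by rw [← pow_add]; congr 1; ring
  have e3 : (J : ℝ) ^ (2 * q) ≤ 2 ^ (8 * q * N) := by
    have h1 : (J : ℝ) ≤ 2 ^ (4 * N) := by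
      calc (J : ℝ) ≤ 5 * N := hJR
        _ ≤ 2 ^ (3 * N) * 2 ^ N := by
            have : (5 : ℝ) ≤ 2 ^ (3 * N) := by
              calc (5 : ℝ) ≤ 2 ^ 3 := by norm_num
                _ ≤ 2 ^ (3 * N) := pow_le_pow_right₀ (by norm_num) (by omega)
            gcongr
        _ = 2 ^ (4 * N) := by rw [← pow_add]; congr 1; ring
    calc (J : ℝ) ^ (2 * q) ≤ (2 ^ (4 * N)) ^ (2 * q) := pow_le_pow_left₀ (by linarith) h1 _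
      _ = 2 ^ (8 * q * N) := by rw [← pow_mul]; congr 1; ring
  have e4 : S ≤ 2 ^ (b2 * N) := hb2.trans (pow_le_pow_right₀ (by norm_num) (by nlinarith))
  have hbase : 2 * (J : ℝ) * A * (J : ℝ) ^ (2 * q) * S / ((2 : ℝ) ^ (N ^ 6))⁻¹ ≤
      2 ^ ((5 + c2 + 8 * q + b2 + 1) * N ^ 6) := by
    rw [div_inv_eq_mul]
    have hA0 : 0 ≤ A := by linarith
    calc 2 * (J : ℝ) * A * (J : ℝ) ^ (2 * q) * S * 2 ^ (N ^ 6)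
        ≤ 2 ^ (5 * N) * 2 ^ (c2 * N ^ 2) * 2 ^ (8 * q * N) * 2 ^ (b2 * N) * 2 ^ (N ^ 6) := by
          gcongr
      _ = 2 ^ (5 * N + c2 * N ^ 2 + 8 * q * N + b2 * N + N ^ 6) := by
          rw [← pow_add, ← pow_add, ← pow_add, ← pow_add]
      _ ≤ 2 ^ ((5 + c2 + 8 * q + b2 + 1) * N ^ 6) := by
          apply pow_le_pow_right₀ (by norm_num)
          have h6 : N ≤ N ^ 6 := Nat.le_self_pow (by norm_num) N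
          have h2 : N ^ 2 ≤ N ^ 6 := Nat.pow_le_pow_right hN1 (by norm_num)
          have h3 : 5 * N ≤ 5 * N ^ 6 := Nat.mul_le_mul_left _ h6
          have h4 : c2 * N ^ 2 ≤ c2 * N ^ 6 := Nat.mul_le_mul_left _ h2
          have h5 : 8 * q * N ≤ 8 * q * N ^ 6 := Nat.mul_le_mul_left _ h6
          have h7 : b2 * N ≤ b2 * N ^ 6 := Nat.mul_le_mul_left _ h6
          calc 5 * N + c2 * N ^ 2 + 8 * q * N + b2 * N + N ^ 6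
              ≤ 5 * N ^ 6 + c2 * N ^ 6 + 8 * q * N ^ 6 + b2 * N ^ 6 + N ^ 6 := by omega
            _ = _ := by ring
  have hbase1 : 1 ≤ 2 * (J : ℝ) * A * (J : ℝ) ^ (2 * q) * S / ((2 : ℝ) ^ (N ^ 6))⁻¹ := by
    rw [div_inv_eq_mul]
    have h2 : (1 : ℝ) ≤ (J : ℝ) ^ (2 * q) := one_le_pow₀ hJ1
    have h3 : (1 : ℝ) ≤ 2 ^ (N ^ 6) := one_le_pow₀ (by norm_num)
    have h4 : (1 : ℝ) ≤ 2 * J := by linarith
    exact one_le_mul_of_one_le_of_one_le (one_le_mul_of_one_le_of_one_le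
      (one_le_mul_of_one_le_of_one_le (one_le_mul_of_one_le_of_one_le h4 hA1) h2) hS) h3
  unfold Cst
  calc (2 * (J : ℝ) * A * (J : ℝ) ^ (2 * q) * S / ((2 : ℝ) ^ (N ^ 6))⁻¹) ^
        (a * (J + 1) ^ 2)
      ≤ (2 * (J : ℝ) * A * (J : ℝ) ^ (2 * q) * S / ((2 : ℝ) ^ (N ^ 6))⁻¹) ^
        (a * (6 * N) ^ 2) := by
        apply pow_le_pow_right₀ hbase1
        have : (J + 1) ^ 2 ≤ (6 * N) ^ 2 := Nat.pow_le_pow_left (by omega) 2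
        exact Nat.mul_le_mul_left a this
    _ ≤ (2 ^ ((5 + c2 + 8 * q + b2 + 1) * N ^ 6)) ^ (a * (6 * N) ^ 2) :=
        pow_le_pow_left₀ (by linarith) hbase _
    _ = 2 ^ (36 * a * (5 + c2 + 8 * q + b2 + 1) * N ^ 8) := by
        rw [← pow_mul]
        congr 1
        ring

section

variable {α : ℝ} {N c : ℕ}

theorem pw8 (hN : 1 ≤ N) {j : ℕ} (hj : j ≤ 8) : (N : ℝ) ^ j ≤ (N : ℝ) ^ 8 :=
  pow_le_pow_right₀ (by exact_mod_cast hN) hj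

theorem pw81 (hN : 1 ≤ N) : (N : ℝ) ≤ (N : ℝ) ^ 8 := by
  simpa using pw8 hN (show 1 ≤ 8 by norm_num)

theorem pw80 (hN : 1 ≤ N) : (1 : ℝ) ≤ (N : ℝ) ^ 8 := by
  simpa using pw8 hN (show 0 ≤ 8 by norm_num)

/-- `K * (A * (X * E)) ≤ 1`. -/
theorem num1 {K A X : ℝ} {b c1 : ℕ} (hN : 1 ≤ N) (hcN : 8 * (c : ℝ) * (N : ℝ) ^ 8 ≤ α)
    (hK : K ≤ 2 ^ (b * N ^ 8)) (hAC0 : 0 ≤ A * X) (hAC : A * X ≤ 2 ^ (c1 * N ^ 2))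
    (hc : b + c1 ≤ c) : K * (A * (X * 2 ^ (-α / 4))) ≤ 1 := by
  have hcR : (b : ℝ) + c1 ≤ c := by exact_mod_cast hc
  rw [show A * (X * (2 : ℝ) ^ (-α / 4)) = A * X * 2 ^ (-α / 4) by ring, E_eq]
  calc K * (A * X * 2 ^ (-(α / 4))) ≤ 2 ^ (b * N ^ 8) * (2 ^ (c1 * N ^ 2) * 2 ^ (-(α / 4))) := by
        gcongr
    _ = 2 ^ (b * N ^ 8 + c1 * N ^ 2) * 2 ^ (-(α / 4)) := by
        rw [pow_add]
        ring
    _ ≤ 1 := by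
        apply hkey
        push_cast
        have h1 := pw8 hN (show 2 ≤ 8 by norm_num)
        have h2 : (c1 : ℝ) * (N : ℝ) ^ 2 ≤ c1 * (N : ℝ) ^ 8 := by gcongr
        have h3 : ((b : ℝ) + c1) * (N : ℝ) ^ 8 ≤ c * (N : ℝ) ^ 8 := by gcongr
        have h4 : (0 : ℝ) ≤ c * (N : ℝ) ^ 8 := by positivity
        linarith

/-- `s₀ * (A * (2 * (A * (X * E)))) ≤ c₀ / 32`. -/
theorem num3 {A X s₀ c₀ : ℝ} {b3 c1 c2 : ℕ} (hN : 1 ≤ N) (hcN : 8 * (c : ℝ) * (N : ℝ) ^ 8 ≤ α)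
    (hc0 : ((2 : ℝ) ^ N)⁻¹ ≤ c₀) (hb3 : 64 * s₀ ≤ 2 ^ b3) (hA0 : 0 ≤ A)
    (hA : A ≤ 2 ^ (c2 * N ^ 2)) (hAC0 : 0 ≤ A * X) (hAC : A * X ≤ 2 ^ (c1 * N ^ 2))
    (hc : b3 + c2 + c1 + 1 ≤ c) : s₀ * (A * (2 * (A * (X * 2 ^ (-α / 4))))) ≤ c₀ / 32 := by
  have hcR : (b3 : ℝ) + c2 + c1 + 1 ≤ c := by exact_mod_cast hc
  have hpN : (0 : ℝ) < 2 ^ N := by positivity
  have hEpos : (0 : ℝ) < 2 ^ (-(α / 4)) := by positivity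
  have h0 : 64 * s₀ * (A * (A * X) * 2 ^ (-(α / 4))) ≤ ((2 : ℝ) ^ N)⁻¹ := by
    rw [← one_div, le_div_iff₀ hpN]
    calc 64 * s₀ * (A * (A * X) * 2 ^ (-(α / 4))) * 2 ^ N
        ≤ 2 ^ b3 * (2 ^ (c2 * N ^ 2) * 2 ^ (c1 * N ^ 2) * 2 ^ (-(α / 4))) * 2 ^ N := by
          gcongr
      _ = 2 ^ (b3 + c2 * N ^ 2 + c1 * N ^ 2 + N) * 2 ^ (-(α / 4)) := by
          rw [pow_add, pow_add, pow_add]
          ring
      _ ≤ 1 := by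
          apply hkey
          push_cast
          have h1 := pw8 hN (show 2 ≤ 8 by norm_num)
          have h2 : (b3 : ℝ) * 1 ≤ b3 * (N : ℝ) ^ 8 := by
            have := pw80 hN
            gcongr
          have h3 : (c2 : ℝ) * (N : ℝ) ^ 2 ≤ c2 * (N : ℝ) ^ 8 := by gcongr
          have h4 : (c1 : ℝ) * (N : ℝ) ^ 2 ≤ c1 * (N : ℝ) ^ 8 := by gcongr
          have h5 := pw81 hN
          have h6 : ((b3 : ℝ) + c2 + c1 + 1) * (N : ℝ) ^ 8 ≤ c * (N : ℝ) ^ 8 := by gcongr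
          have h7 : (0 : ℝ) ≤ c * (N : ℝ) ^ 8 := by positivity
          linarith
  rw [E_eq]
  have h1 : s₀ * (A * (2 * (A * (X * 2 ^ (-(α / 4)))))) =
      64 * s₀ * (A * (A * X) * 2 ^ (-(α / 4))) / 32 := by ring
  rw [h1]
  linarith [h0.trans hc0]

/-- `exp (α ^ (11/10)) * (K * (A * (X * E)) ^ N) ≤ 1`. -/
theorem num4 {K A X : ℝ} {b c1 : ℕ} (hN : 1 ≤ N) (hα : 1 ≤ α) (h16 : 16 * α ^ (1 / 10 : ℝ) ≤ N)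
    (hcN : 8 * (c : ℝ) * (N : ℝ) ^ 8 ≤ α)
    (hK0 : 0 ≤ K) (hK : K ≤ 2 ^ (b * N ^ 8)) (hAC0 : 0 ≤ A * X) (hAC : A * X ≤ 2 ^ (c1 * N ^ 2))
    (hc : b + c1 ≤ c) :
    Real.exp (α ^ (11 / 10 : ℝ)) * (K * (A * (X * 2 ^ (-α / 4))) ^ N) ≤ 1 := by
  have hα0 : 0 ≤ α := by linarith
  have hNR : (1 : ℝ) ≤ N := by exact_mod_cast hN
  have hcR : (b : ℝ) + c1 ≤ c := by exact_mod_cast hc
  rw [show A * (X * (2 : ℝ) ^ (-α / 4)) = A * X * 2 ^ (-α / 4) by ring, mul_pow, E_pow]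
  have h3 : α ^ (11 / 10 : ℝ) ≤ α * (N / 16) := by
    have : α ^ (11 / 10 : ℝ) = α * α ^ (1 / 10 : ℝ) := by
      rw [show (11 / 10 : ℝ) = 1 + 1 / 10 by norm_num, Real.rpow_add (by linarith), Real.rpow_one]
    rw [this]
    apply mul_le_mul_of_nonneg_left _ hα0
    linarith
  have h4 : Real.exp (α ^ (11 / 10 : ℝ)) ≤ 2 ^ (α * (N / 8)) := by
    refine (exp_le_two_rpow (Real.rpow_nonneg hα0 _)).trans ?_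
    apply Real.rpow_le_rpow_of_exponent_le (by norm_num)
    linarith
  have h5 : (A * X) ^ N ≤ 2 ^ (c1 * N ^ 3) := by
    calc (A * X) ^ N ≤ (2 ^ (c1 * N ^ 2)) ^ N := pow_le_pow_left₀ hAC0 hAC N
      _ = 2 ^ (c1 * N ^ 3) := by rw [← pow_mul]; congr 1; ring
  have h0 : 0 ≤ (A * X) ^ N := pow_nonneg hAC0 N
  calc Real.exp (α ^ (11 / 10 : ℝ)) * (K * ((A * X) ^ N * 2 ^ (-(α * (N / 4)))))
      ≤ 2 ^ (α * (N / 8)) * (2 ^ (b * N ^ 8) * (2 ^ (c1 * N ^ 3) * 2 ^ (-(α * (N / 4))))) := by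
        gcongr
    _ = 2 ^ (b * N ^ 8 + c1 * N ^ 3) * (2 ^ (α * (N / 8)) * 2 ^ (-(α * (N / 4)))) := by
        rw [pow_add]
        ring
    _ = 2 ^ (b * N ^ 8 + c1 * N ^ 3) * 2 ^ (-(α * (N / 8))) := by
        rw [← Real.rpow_add (by norm_num)]
        congr 2
        ring
    _ ≤ 1 := by
        apply hkey
        push_cast
        have h6 := pw8 hN (show 3 ≤ 8 by norm_num)
        have h7 : (c1 : ℝ) * (N : ℝ) ^ 3 ≤ c1 * (N : ℝ) ^ 8 := by gcongr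
        have h8 : ((b : ℝ) + c1) * (N : ℝ) ^ 8 ≤ c * (N : ℝ) ^ 8 := by gcongr
        have h9' : α * 1 ≤ α * N := by gcongr
        linarith

/-- The smallness of the `WA` norm of the datum. -/
theorem num6 {D c₀ : ℝ} {b4 : ℕ} (hN : 1 ≤ N) (hcN : 8 * (c : ℝ) * (N : ℝ) ^ 8 ≤ α)
    (hc0 : ((2 : ℝ) ^ N)⁻¹ ≤ c₀) (hb4 : 32 * D ≤ 2 ^ b4) (hc : b4 + 2 ≤ c) :
    D * 2 ^ N * (2 : ℝ) ^ (-α / 2) ≤ c₀ / 32 := by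
  have hcR : (b4 : ℝ) + 2 ≤ c := by exact_mod_cast hc
  have hpN : (0 : ℝ) < 2 ^ N := by positivity
  have h0 : 32 * D * 2 ^ N * (2 : ℝ) ^ (-(α / 2)) ≤ ((2 : ℝ) ^ N)⁻¹ := by
    rw [← one_div, le_div_iff₀ hpN]
    calc 32 * D * 2 ^ N * (2 : ℝ) ^ (-(α / 2)) * 2 ^ N
        ≤ 2 ^ b4 * 2 ^ N * (2 : ℝ) ^ (-(α / 2)) * 2 ^ N := by gcongr
      _ = 2 ^ (b4 + N + N) * (2 : ℝ) ^ (-(α / 2)) := by
          rw [pow_add, pow_add]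
          ring
      _ ≤ 1 := by
          apply hkey
          push_cast
          have h2 : (b4 : ℝ) * 1 ≤ b4 * (N : ℝ) ^ 8 := by
            have := pw80 hN
            gcongr
          have h5 := pw81 hN
          have h6 : ((b4 : ℝ) + 2) * (N : ℝ) ^ 8 ≤ c * (N : ℝ) ^ 8 := by gcongr
          have h7 : (0 : ℝ) ≤ c * (N : ℝ) ^ 8 := by positivity
          linarith
  rw [show -α / 2 = -(α / 2) by ring]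
  have h1 : D * 2 ^ N * (2 : ℝ) ^ (-(α / 2)) = 32 * D * 2 ^ N * (2 : ℝ) ^ (-(α / 2)) / 32 := by
    ring
  rw [h1]
  linarith [h0.trans hc0]

/-- The shift of the frequency parameter. -/
theorem num5 {D c₀ : ℝ} {m b5 : ℕ} (hN : 1 ≤ N) (hcN : 8 * (c : ℝ) * (N : ℝ) ^ 8 ≤ α)
    (hc0 : 0 ≤ c₀) (hc1 : c₀ ≤ 2 ^ N) (hb5 : (m : ℝ) * (m * (2 ^ m * D ^ 2)) ≤ 2 ^ b5)
    (hc : b5 + 2 * m + 4 ≤ c) :
    m * (m * (c₀ ^ 2 + 1) ^ m) * ((D * 2 ^ N) ^ 2 * (2 : ℝ) ^ (-α)) ≤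
      ((2 : ℝ) ^ (N ^ 6 + N))⁻¹ := by
  have hcR : (b5 : ℝ) + 2 * m + 4 ≤ c := by exact_mod_cast hc
  have hp : (0 : ℝ) < 2 ^ (N ^ 6 + N) := by positivity
  have hN1 : (1 : ℝ) ≤ 2 ^ (2 * N) := one_le_pow₀ (by norm_num)
  have h1 : c₀ ^ 2 + 1 ≤ 2 * 2 ^ (2 * N) := by
    have : c₀ ^ 2 ≤ 2 ^ (2 * N) := by
      rw [← sq_two_pow]
      exact pow_le_pow_left₀ hc0 hc1 2
    linarith
  have h2 : (c₀ ^ 2 + 1) ^ m ≤ 2 ^ m * 2 ^ (2 * N * m) := by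
    calc (c₀ ^ 2 + 1) ^ m ≤ (2 * 2 ^ (2 * N)) ^ m := pow_le_pow_left₀ (by positivity) h1 m
      _ = 2 ^ m * 2 ^ (2 * N * m) := by rw [mul_pow, ← pow_mul]
  rw [← one_div, le_div_iff₀ hp]
  calc m * (m * (c₀ ^ 2 + 1) ^ m) * ((D * 2 ^ N) ^ 2 * (2 : ℝ) ^ (-α)) * 2 ^ (N ^ 6 + N)
      ≤ m * (m * (2 ^ m * 2 ^ (2 * N * m))) * ((D * 2 ^ N) ^ 2 * (2 : ℝ) ^ (-α)) *
        2 ^ (N ^ 6 + N) := by gcongr
    _ = (m * (m * (2 ^ m * D ^ 2))) * 2 ^ (2 * N * m) * 2 ^ (2 * N) * (2 : ℝ) ^ (-α) *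
        2 ^ (N ^ 6 + N) := by
        rw [mul_pow D, sq_two_pow]
        ring
    _ ≤ 2 ^ b5 * 2 ^ (2 * N * m) * 2 ^ (2 * N) * (2 : ℝ) ^ (-α) * 2 ^ (N ^ 6 + N) := by
        gcongr
    _ = 2 ^ (b5 + 2 * N * m + 2 * N + (N ^ 6 + N)) * (2 : ℝ) ^ (-α) := by
        rw [pow_add, pow_add, pow_add]
        ring
    _ ≤ 1 := by
        apply hkey
        push_cast
        have h3 := pw8 hN (show 6 ≤ 8 by norm_num)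
        have h5 := pw81 hN
        have h6 : (b5 : ℝ) * 1 ≤ b5 * (N : ℝ) ^ 8 := by
          have := pw80 hN
          gcongr
        have h7 : (2 : ℝ) * N * m ≤ 2 * (N : ℝ) ^ 8 * m := by gcongr
        have h8 : ((b5 : ℝ) + 2 * m + 4) * (N : ℝ) ^ 8 ≤ c * (N : ℝ) ^ 8 := by gcongr
        have h9 : (0 : ℝ) ≤ c * (N : ℝ) ^ 8 := by positivity
        linarith

end

/-- **Row S4b.** All inequalities of stage 2, uniformly for `c ∈ [2^(-N), 2^N]`, `N = NN α`. -/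
theorem numericsG (a aH m q N₀ : ℕ) {A₁ S C D s₀ : ℝ} (hA₁ : 1 ≤ A₁) (hS : 1 ≤ S)
    (hC : 1 ≤ C) :
    ∀ᶠ α : ℝ in atTop, N₀ ≤ NN α ∧ (NN α : ℝ) ^ 9 ≤ α ∧ 3 * NN α + 2 * m + 6 ≤ 10 * NN α ∧
      16 * α ^ (1 / 10 : ℝ) ≤ NN α ∧
      ∀ c : ℝ, ((2 : ℝ) ^ NN α)⁻¹ ≤ c → c ≤ 2 ^ NN α →
        D * 2 ^ NN α * (2 : ℝ) ^ (-α / 2) ≤ c / 32 ∧
        D * 2 ^ NN α * (2 : ℝ) ^ (-α / 2) ≤ 1 ∧
        m * (m * (c ^ 2 + 1) ^ m) * ((D * 2 ^ NN α) ^ 2 * (2 : ℝ) ^ (-α)) ≤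
          ((2 : ℝ) ^ (NN α ^ 6 + NN α))⁻¹ ∧
        ∀ ρ A : ℝ, 0 < ρ → ρ + ρ⁻¹ ≤ 2 ^ (NN α + 2) →
          A = (A₁ * (ρ + ρ⁻¹)) ^ (aH * (NN α + 1)) →
          1 ≤ A ∧
          Cst a (3 * NN α + 2 * m + 6) A (((3 * NN α + 2 * m + 6 : ℕ) : ℝ) ^ (2 * q)) S
            ((2 : ℝ) ^ (NN α ^ 6))⁻¹ * (A * (C * 2 ^ NN α * 2 ^ (-α / 4))) ≤ 1 ∧
          (2 : ℝ) ^ (-(α * ((NN α : ℝ) / 4 + 1))) ≤
            (A * (C * 2 ^ NN α * 2 ^ (-α / 4))) ^ NN α ∧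
          s₀ * (A * (2 * (A * (C * 2 ^ NN α * 2 ^ (-α / 4))))) ≤ c / 32 ∧
          Real.exp (α ^ (11 / 10 : ℝ)) *
            (Cst a (3 * NN α + 2 * m + 6) A (((3 * NN α + 2 * m + 6 : ℕ) : ℝ) ^ (2 * q)) S
              ((2 : ℝ) ^ (NN α ^ 6))⁻¹ *
              (A * (C * 2 ^ NN α * 2 ^ (-α / 4))) ^ NN α) ≤ 1 := by
  obtain ⟨b1, hb1⟩ := exists_le_two_pow A₁
  obtain ⟨c2, hc2⟩ : ∃ c2 : ℕ, c2 = 2 * aH * (b1 + 3) := ⟨_, rfl⟩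
  obtain ⟨b, hb⟩ := cst_le a m q c2 hS
  obtain ⟨b2, hb2⟩ := exists_le_two_pow C
  obtain ⟨b3, hb3⟩ := exists_le_two_pow (64 * s₀)
  obtain ⟨b4, hb4⟩ := exists_le_two_pow (32 * D)
  obtain ⟨b5, hb5⟩ := exists_le_two_pow ((m : ℝ) * (m * (2 ^ m * D ^ 2)))
  obtain ⟨b6, hb6⟩ := exists_le_two_pow D
  obtain ⟨c, hc⟩ : ∃ c : ℕ, c = b + 2 * c2 + b2 + b3 + b4 + b5 + b6 + 2 * m + 8 := ⟨_, rfl⟩
  filter_upwards [NN_tendsto.eventually_ge_atTop (max N₀ (max (m + 3) (8 * c))), NN_lower,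
    eventually_ge_atTop 1] with α hN hlow hα1
  have hN0 : N₀ ≤ NN α := (le_max_left _ _).trans hN
  have hN1 : m + 3 ≤ NN α := (le_max_left _ _).trans ((le_max_right _ _).trans hN)
  have hN2 : 8 * c ≤ NN α := (le_max_right _ _).trans ((le_max_right _ _).trans hN)
  have hα0 : 0 ≤ α := by linarith
  have h9 := NN_pow_le hα0
  have hb' := hb (NN α) hN1
  generalize NN α = N at *
  have hNpos : 1 ≤ N := by omega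
  have hNR : (1 : ℝ) ≤ N := by exact_mod_cast hNpos
  have hcR : 8 * (c : ℝ) ≤ N := by exact_mod_cast hN2
  have hcN8 : 8 * (c : ℝ) * (N : ℝ) ^ 8 ≤ α := by
    calc 8 * (c : ℝ) * (N : ℝ) ^ 8 ≤ N * (N : ℝ) ^ 8 := by gcongr
      _ = (N : ℝ) ^ 9 := by ring
      _ ≤ α := h9
  have h2N : (1 : ℝ) ≤ 2 ^ N := one_le_pow₀ (by norm_num)
  refine ⟨hN0, h9, by omega, hlow, fun c₀ hc0 hc1 => ?_⟩
  have hc00 : 0 < c₀ := lt_of_lt_of_le (inv_pos.2 (by positivity)) hc0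
  refine ⟨num6 (c := c) hNpos hcN8 hc0 hb4 (by omega), ?_,
    num5 (c := c) hNpos hcN8 hc00.le hc1 hb5 (by omega), ?_⟩
  · -- `D 2^N 2^(-α/2) ≤ 1`
    rw [show -α / 2 = -(α / 2) by ring]
    calc D * 2 ^ N * (2 : ℝ) ^ (-(α / 2)) ≤ 2 ^ b6 * 2 ^ N * (2 : ℝ) ^ (-(α / 2)) := by gcongr
      _ = 2 ^ (b6 + N) * (2 : ℝ) ^ (-(α / 2)) := by rw [pow_add]
      _ ≤ 1 := by
          apply hkey
          push_cast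
          have h2 : (b6 : ℝ) * 1 ≤ b6 * (N : ℝ) ^ 8 := by
            have := pw80 hNpos
            gcongr
          have h5 := pw81 hNpos
          have hcR' : (b6 : ℝ) + 1 ≤ c := by
            have : b6 + 1 ≤ c := by omega
            exact_mod_cast this
          have h6 : ((b6 : ℝ) + 1) * (N : ℝ) ^ 8 ≤ c * (N : ℝ) ^ 8 := by gcongr
          have h7 : (0 : ℝ) ≤ c * (N : ℝ) ^ 8 := by positivity
          linarith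
  · intro ρ A hρ hρ2 hA
    have hA1 : 1 ≤ A := by rw [hA]; exact one_le_A hA₁ hρ _
    have hA2 : A ≤ 2 ^ (c2 * N ^ 2) := by
      rw [hA, hc2]; exact A_le hNpos hA₁ hb1 hρ hρ2
    have hK := hb' A hA1 hA2
    have hK0 : 0 ≤ Cst a (3 * N + 2 * m + 6) A
        (((3 * N + 2 * m + 6 : ℕ) : ℝ) ^ (2 * q)) S ((2 : ℝ) ^ (N ^ 6))⁻¹ := by
      unfold Cst
      have : 0 ≤ A := by linarith
      positivity
    have hX1 : 1 ≤ C * 2 ^ N := one_le_mul_of_one_le_of_one_le hC h2N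
    have hAX1 : 1 ≤ A * (C * 2 ^ N) := one_le_mul_of_one_le_of_one_le hA1 hX1
    have hAX : A * (C * 2 ^ N) ≤ 2 ^ ((c2 + b2 + 1) * N ^ 2) := by
      calc A * (C * 2 ^ N) ≤ 2 ^ (c2 * N ^ 2) * (2 ^ b2 * 2 ^ N) := by gcongr
        _ = 2 ^ (c2 * N ^ 2 + (b2 + N)) := by rw [← pow_add, ← pow_add]
        _ ≤ 2 ^ ((c2 + b2 + 1) * N ^ 2) := by
            apply pow_le_pow_right₀ (by norm_num)
            have h1 : N ≤ N ^ 2 := Nat.le_self_pow (by norm_num) N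
            have h2 : b2 * 1 ≤ b2 * N ^ 2 := Nat.mul_le_mul_left _ (by omega)
            calc c2 * N ^ 2 + (b2 + N) ≤ c2 * N ^ 2 + (b2 * N ^ 2 + N ^ 2) := by omega
              _ = _ := by ring
    exact ⟨hA1,
      num1 (c := c) hNpos hcN8 hK (by linarith) hAX (by omega),
      num2 hα0 hAX1,
      num3 (c := c) hNpos hcN8 hc0 hb3 (by linarith) hA2 (by linarith) hAX (by omega),
      num4 (c := c) hNpos hα1 hlow hcN8 hK0 hK (by linarith) hAX (by omega)⟩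

end Vale.Agent.P139.BN.NumQ

namespace Vale.Agent.P139.BN

open NumQ

/-- **Row S4b**, format of the assembly: `c ≤ ρ ≤ 2c`. -/
theorem numericsQ (a aH m q : ℕ) {A₁ S Cd s₀ : ℝ} (hA₁ : 1 ≤ A₁) (hS : 1 ≤ S) (hCd : 1 ≤ Cd) :
    ∀ᶠ α : ℝ in atTop, ∀ c ρ A : ℝ, ((2 : ℝ) ^ NN α)⁻¹ ≤ c → c ≤ (2 : ℝ) ^ NN α → c ≤ ρ →
      ρ ≤ 2 * c → A = (A₁ * (ρ + ρ⁻¹)) ^ (aH * (NN α + 1)) →
      (NN α : ℝ) ^ 9 ≤ α ∧ 3 * NN α + 2 * m + 6 ≤ 10 * NN α ∧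
      Cst a (3 * NN α + 2 * m + 6) A (((3 * NN α + 2 * m + 6 : ℕ) : ℝ) ^ (2 * q)) S
        ((2 : ℝ) ^ (NN α ^ 6))⁻¹ * (A * (Cd * 2 ^ NN α * 2 ^ (-α / 4))) ≤ 1 ∧
      (2 : ℝ) ^ (-(α * ((NN α : ℝ) / 4 + 1))) ≤ (A * (Cd * 2 ^ NN α * 2 ^ (-α / 4))) ^ NN α ∧
      s₀ * (A * (2 * (A * (Cd * 2 ^ NN α * 2 ^ (-α / 4))))) ≤ c / 32 ∧
      Real.exp (α ^ (11 / 10 : ℝ)) * (Cst a (3 * NN α + 2 * m + 6) A
        (((3 * NN α + 2 * m + 6 : ℕ) : ℝ) ^ (2 * q)) S ((2 : ℝ) ^ (NN α ^ 6))⁻¹ *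
          (A * (Cd * 2 ^ NN α * 2 ^ (-α / 4))) ^ NN α) ≤ 1 := by
  filter_upwards [numericsG a aH m q 0 (D := 0) (s₀ := s₀) hA₁ hS hCd] with α h c ρ A hc1 hc2 h1 h2 hA
  obtain ⟨_, h9, hJ, _, h⟩ := h
  obtain ⟨_, _, _, h⟩ := h c hc1 hc2
  have hN : (0 : ℝ) < 2 ^ NN α := by positivity
  have hc : 0 < c := lt_of_lt_of_le (inv_pos.2 hN) hc1
  have hρ : 0 < ρ := by linarith
  have hi : ρ⁻¹ ≤ 2 ^ NN α := by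
    rw [inv_le_comm₀ hρ hN]
    linarith
  have hρ2 : ρ + ρ⁻¹ ≤ 2 ^ (NN α + 2) := by
    rw [pow_add]
    norm_num
    linarith
  obtain ⟨_, h3, h4, h5, h6⟩ := h ρ A hρ hρ2 hA
  exact ⟨h9, hJ, h3, h4, h5, h6⟩

/-- **Row S4b**, with all side inequalities, `ρ = sqrt (c² + e)`, `0 ≤ e ≤ 1`. -/
theorem numericsQ' (a aH m q N₀ : ℕ) {A₁ S C D s₀ : ℝ} (hA₁ : 1 ≤ A₁) (hS : 1 ≤ S)
    (hC : 1 ≤ C) :
    ∀ᶠ α : ℝ in atTop, N₀ ≤ NN α ∧ (NN α : ℝ) ^ 9 ≤ α ∧ 3 * NN α + 2 * m + 6 ≤ 10 * NN α ∧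
      16 * α ^ (1 / 10 : ℝ) ≤ NN α ∧
      ∀ c : ℝ, ((2 : ℝ) ^ NN α)⁻¹ ≤ c → c ≤ 2 ^ NN α →
        D * 2 ^ NN α * (2 : ℝ) ^ (-α / 2) ≤ c / 32 ∧
        D * 2 ^ NN α * (2 : ℝ) ^ (-α / 2) ≤ 1 ∧
        m * (m * (c ^ 2 + 1) ^ m) * ((D * 2 ^ NN α) ^ 2 * (2 : ℝ) ^ (-α)) ≤
          ((2 : ℝ) ^ (NN α ^ 6 + NN α))⁻¹ ∧
        ∀ e A : ℝ, 0 ≤ e → e ≤ 1 →
          A = (A₁ * (Real.sqrt (c ^ 2 + e) + (Real.sqrt (c ^ 2 + e))⁻¹)) ^ (aH * (NN α + 1)) →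
          1 ≤ A ∧
          Cst a (3 * NN α + 2 * m + 6) A (((3 * NN α + 2 * m + 6 : ℕ) : ℝ) ^ (2 * q)) S
            ((2 : ℝ) ^ (NN α ^ 6))⁻¹ * (A * (C * 2 ^ NN α * 2 ^ (-α / 4))) ≤ 1 ∧
          (2 : ℝ) ^ (-(α * ((NN α : ℝ) / 4 + 1))) ≤
            (A * (C * 2 ^ NN α * 2 ^ (-α / 4))) ^ NN α ∧
          s₀ * (A * (2 * (A * (C * 2 ^ NN α * 2 ^ (-α / 4))))) ≤ c / 32 ∧
          Real.exp (α ^ (11 / 10 : ℝ)) *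
            (Cst a (3 * NN α + 2 * m + 6) A (((3 * NN α + 2 * m + 6 : ℕ) : ℝ) ^ (2 * q)) S
              ((2 : ℝ) ^ (NN α ^ 6))⁻¹ *
              (A * (C * 2 ^ NN α * 2 ^ (-α / 4))) ^ NN α) ≤ 1 := by
  filter_upwards [numericsG a aH m q N₀ (D := D) (s₀ := s₀) hA₁ hS hC] with α h
  obtain ⟨h0, h9, hJ, h16, h⟩ := h
  refine ⟨h0, h9, hJ, h16, fun c hc1 hc2 => ?_⟩
  obtain ⟨h3, h4, h5, h6⟩ := h c hc1 hc2
  refine ⟨h3, h4, h5, fun e A he he1 hA => ?_⟩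
  obtain ⟨hρ, hρ2⟩ := rho_bd hc1 hc2 he he1
  exact h6 _ A hρ hρ2 hA

end Vale.Agent.P139.BN
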