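import Mathlib.Analysis.Analytic.Binomial
import Mathlib.Analysis.SpecialFunctions.Pow.Deriv
import Mathlib.Analysis.SpecialFunctions.Sqrt
import Mathlib.Analysis.SpecificLimits.Basic

/-!
# P139, row R8a: Taylor scalars

For `b₀ ∈ [ρ₀/2, 2ρ₀]`, `M = b₀²`, `0 ≤ S ≤ M/4`, `q ≤ 2m+2`, the Taylor polynomial
`TT b₀ q n` of `S ↦ (b₀² - S)^(q/2)` with remainder and coefficient bounds (constant `C0 m ρ₀`).
-/

set_option autoImplicit false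

open Finset

namespace Vale.Agent.P139.BN.Tay

/-- The generalised binomial coefficient `a (a-1) ⋯ (a-l+1) / l!`. -/
noncomputable def bin (a : ℝ) : ℕ → ℝ
  | 0 => 1
  | l + 1 => bin a l * (a - l) / (l + 1)

@[simp] lemma bin_zero (a : ℝ) : bin a 0 = 1 := rfl

lemma bin_succ (a : ℝ) (l : ℕ) : bin a (l + 1) = bin a l * (a - l) / (l + 1) := rfl

lemma bin_eq_choose (a : ℝ) (l : ℕ) : bin a l = Ring.choose a l := by
  induction l with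
  | zero => simp
  | succ l ih =>
    have h1 := Ring.descPochhammer_eq_factorial_smul_choose a l
    have h2 := Ring.descPochhammer_eq_factorial_smul_choose a (l + 1)
    rw [descPochhammer_succ_right, Polynomial.smeval_mul, h1] at h2
    have h3 : (Polynomial.X - (l : Polynomial ℤ)).smeval a = a - l := by
      simp [Polynomial.smeval_sub, Polynomial.smeval_natCast]
    rw [h3, Nat.factorial_succ] at h2
    have h4 : ((l.factorial : ℕ) : ℝ) ≠ 0 := by positivity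
    have h5 : ((l : ℝ) + 1) ≠ 0 := by positivity
    rw [bin_succ, ih, div_eq_iff h5]
    simp only [nsmul_eq_mul, Nat.cast_mul, Nat.cast_add, Nat.cast_one] at h2
    have h6 : (l.factorial : ℝ) * (Ring.choose a l * (a - l)) =
        (l.factorial : ℝ) * (Ring.choose a (l + 1) * (l + 1)) := by
      linear_combination h2
    exact mul_left_cancel₀ h4 h6

/-- `(l+1) C(a, l+1) = a C(a-1, l)`. -/
lemma succ_mul_bin_succ (a : ℝ) (l : ℕ) : (l + 1) * bin a (l + 1) = a * bin (a - 1) l := by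
  induction l with
  | zero => simp [bin_succ]
  | succ l ih =>
    have h5 : ((l : ℝ) + 1) ≠ 0 := by positivity
    have h6 : ((l : ℝ) + 1 + 1) ≠ 0 := by positivity
    rw [bin_succ a (l + 1), bin_succ (a - 1) l]
    have h7 : bin a (l + 1) = a * bin (a - 1) l / (l + 1) := by
      rw [eq_div_iff h5]; linear_combination ih
    rw [h7]
    push_cast
    field_simp
    ring

/-- Uniform bound of the binomial coefficients. -/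
lemma bin_le (K : ℕ) (a : ℝ) (h1 : -1 ≤ a) (h2 : a ≤ K) (l : ℕ) :
    |bin a l| ≤ ((K : ℝ) + 1) ^ K := by
  have key : ∀ l : ℕ, |bin a l| ≤ ((K : ℝ) + 1) ^ (min l K) := by
    intro l
    induction l with
    | zero => simp
    | succ l ih =>
      have h5 : (0 : ℝ) < (l : ℝ) + 1 := by positivity
      rw [bin_succ, abs_div, abs_mul, abs_of_pos h5]
      rcases lt_or_ge l K with hl | hl
      · rw [min_eq_left (by omega : l + 1 ≤ K), pow_succ]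
        rw [min_eq_left hl.le] at ih
        have h6 : |a - l| / (l + 1) ≤ (K : ℝ) + 1 := by
          rw [div_le_iff₀ h5, abs_le]
          have hK : (0 : ℝ) ≤ K := by positivity
          have hl0 : (0 : ℝ) ≤ l := by positivity
          constructor <;> nlinarith
        calc |bin a l| * |a - l| / (l + 1) = |bin a l| * (|a - l| / (l + 1)) := by ring
          _ ≤ ((K : ℝ) + 1) ^ l * ((K : ℝ) + 1) :=
            mul_le_mul ih h6 (by positivity) (by positivity)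
      · rw [min_eq_right (by omega : K ≤ l + 1)]
        rw [min_eq_right hl] at ih
        have hl' : (K : ℝ) ≤ l := by exact_mod_cast hl
        have h6 : |a - l| / (l + 1) ≤ 1 := by
          rw [div_le_one h5, abs_le]
          constructor <;> linarith
        calc |bin a l| * |a - l| / (l + 1) = |bin a l| * (|a - l| / (l + 1)) := by ring
          _ ≤ ((K : ℝ) + 1) ^ K * 1 :=
            mul_le_mul ih h6 (by positivity) (by positivity)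
          _ = _ := mul_one _
  refine (key l).trans ?_
  exact pow_le_pow_right₀ (by linarith [(Nat.cast_nonneg K : (0 : ℝ) ≤ K)]) (min_le_right _ _)

lemma hasSum_bin (a y : ℝ) (hy : |y| < 1) : HasSum (fun n => bin a n * y ^ n) ((1 + y) ^ a) := by
  have h := (Real.one_add_rpow_hasFPowerSeriesOnBall_zero (a := a)).hasSum (y := y)
    (by simpa [Metric.mem_eball, edist_dist, Real.dist_eq] using hy)
  simp only [zero_add] at h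
  have h2 : (fun n => bin a n * y ^ n) = fun n => (binomialSeries ℝ a n) fun _ => y := by
    funext n
    rw [binomialSeries_apply, bin_eq_choose]
    simp
  rw [h2]
  exact h

/-- Remainder of the binomial series. -/
lemma rem_one (K : ℕ) (a : ℝ) (h1 : -1 ≤ a) (h2 : a ≤ K) (N : ℕ) (y : ℝ) (hy : |y| ≤ 1 / 4) :
    |(1 + y) ^ a - ∑ l ∈ range N, bin a l * y ^ l| ≤ 2 * ((K : ℝ) + 1) ^ K * |y| ^ N := by
  have hy1 : |y| < 1 := by linarith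
  have hs := hasSum_bin a y hy1
  have hs' : HasSum (fun n => bin a (n + N) * y ^ (n + N))
      ((1 + y) ^ a - ∑ l ∈ range N, bin a l * y ^ l) := by
    have := (hasSum_nat_add_iff' (f := fun n => bin a n * y ^ n) N).2 hs
    exact this
  have hg : HasSum (fun n : ℕ => ((K : ℝ) + 1) ^ K * |y| ^ N * |y| ^ n)
      (((K : ℝ) + 1) ^ K * |y| ^ N * (1 - |y|)⁻¹) :=
    (hasSum_geometric_of_lt_one (abs_nonneg y) hy1).mul_left _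
  have hb : ∀ n : ℕ, |bin a (n + N) * y ^ (n + N)| ≤ ((K : ℝ) + 1) ^ K * |y| ^ N * |y| ^ n := by
    intro n
    rw [abs_mul, abs_pow, pow_add]
    calc |bin a (n + N)| * (|y| ^ n * |y| ^ N) ≤ ((K : ℝ) + 1) ^ K * (|y| ^ n * |y| ^ N) :=
          mul_le_mul_of_nonneg_right (bin_le K a h1 h2 _) (by positivity)
      _ = _ := by ring
  have h3 : |(1 + y) ^ a - ∑ l ∈ range N, bin a l * y ^ l| ≤
      ((K : ℝ) + 1) ^ K * |y| ^ N * (1 - |y|)⁻¹ := by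
    have := tsum_of_norm_bounded hg (fun n => by rw [Real.norm_eq_abs]; exact hb n)
    rw [hs'.tsum_eq, Real.norm_eq_abs] at this
    exact this
  refine h3.trans ?_
  have h4 : (1 - |y|)⁻¹ ≤ 2 := by
    rw [inv_le_comm₀ (by linarith) (by norm_num)]
    linarith
  calc ((K : ℝ) + 1) ^ K * |y| ^ N * (1 - |y|)⁻¹ ≤ ((K : ℝ) + 1) ^ K * |y| ^ N * 2 :=
        mul_le_mul_of_nonneg_left h4 (by positivity)
    _ = _ := by ring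

/-- Remainder of the Taylor polynomial of `S ↦ (M - S) ^ a`. -/
lemma rem_M (K : ℕ) (a : ℝ) (h1 : -1 ≤ a) (h2 : a ≤ K) (N : ℕ) (M S : ℝ) (hM : 0 < M)
    (hS : 0 ≤ S) (hSM : S ≤ M / 4) :
    |(M - S) ^ a - M ^ a * ∑ l ∈ range N, bin a l * (-1) ^ l * (S / M) ^ l| ≤
      2 * ((K : ℝ) + 1) ^ K * (M ^ a * (S / M) ^ N) := by
  have hy0 : 0 ≤ S / M := by positivity
  have hy : S / M ≤ 1 / 4 := by
    rw [div_le_iff₀ hM]; linarith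
  have h := rem_one K a h1 h2 N (-(S / M)) (by rw [abs_neg, abs_of_nonneg hy0]; exact hy)
  rw [abs_neg, abs_of_nonneg hy0] at h
  have h3 : (M - S) ^ a = M ^ a * (1 + -(S / M)) ^ a := by
    rw [← Real.mul_rpow hM.le (by linarith)]
    congr 1
    field_simp
    ring
  have h4 : ∑ l ∈ range N, bin a l * (-(S / M)) ^ l =
      ∑ l ∈ range N, bin a l * (-1) ^ l * (S / M) ^ l := by
    refine Finset.sum_congr rfl fun l _ => ?_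
    rw [neg_pow]; ring
  rw [h4] at h
  rw [h3, ← mul_sub, abs_mul, abs_of_pos (Real.rpow_pos_of_pos hM a)]
  calc M ^ a * _ ≤ M ^ a * (2 * ((K : ℝ) + 1) ^ K * (S / M) ^ N) :=
        mul_le_mul_of_nonneg_left h (Real.rpow_nonneg hM.le a)
    _ = _ := by ring

/-- Taylor coefficients of `S ↦ (b₀² - S) ^ (q/2)`. -/
noncomputable def tco (b₀ : ℝ) (q l : ℕ) : ℝ :=
  (-1) ^ l * bin ((q : ℝ) / 2) l * (b₀ ^ q / (b₀ ^ 2) ^ l)

/-- Taylor polynomial of `S ↦ (b₀² - S) ^ (q/2)`, degree `n`. -/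
noncomputable def TT (b₀ : ℝ) (q n : ℕ) (S : ℝ) : ℝ := ∑ l ∈ range (n + 1), tco b₀ q l * S ^ l

/-- The derivative of `TT`. -/
noncomputable def TT' (b₀ : ℝ) (q n : ℕ) (S : ℝ) : ℝ :=
  ∑ l ∈ range n, ((l : ℝ) + 1) * tco b₀ q (l + 1) * S ^ l

lemma hasDerivAt_TT (b₀ : ℝ) (q n : ℕ) (S : ℝ) : HasDerivAt (TT b₀ q n) (TT' b₀ q n S) S := by
  have h : ∀ l ∈ range (n + 1), HasDerivAt (fun S : ℝ => tco b₀ q l * S ^ l)
      (tco b₀ q l * ((l : ℝ) * S ^ (l - 1))) S := fun l _ => (hasDerivAt_pow l S).const_mul _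
  have h2 := HasDerivAt.fun_sum h
  refine h2.congr_deriv ?_
  rw [Finset.sum_range_succ']
  simp only [TT', Nat.cast_zero, zero_mul, mul_zero, add_zero, Nat.add_sub_cancel]
  refine Finset.sum_congr rfl fun l _ => ?_
  push_cast
  ring

/-- The constant of the Taylor bounds. -/
noncomputable def C0 (m : ℕ) (ρ₀ : ℝ) : ℝ :=
  2 * ((m : ℝ) + 1) * ((m : ℝ) + 2) ^ (m + 1) * (1 + 2 * ρ₀) ^ (2 * m + 2) * (1 + 4 / ρ₀ ^ 2)

lemma one_le_C0 (m : ℕ) (ρ₀ : ℝ) (hρ : 0 < ρ₀) : 1 ≤ C0 m ρ₀ := by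
  have hm : (0 : ℝ) ≤ m := Nat.cast_nonneg m
  have h1 : (1 : ℝ) ≤ 2 * ((m : ℝ) + 1) := by linarith
  have h2 : (1 : ℝ) ≤ ((m : ℝ) + 2) ^ (m + 1) := one_le_pow₀ (by linarith)
  have h3 : (1 : ℝ) ≤ (1 + 2 * ρ₀) ^ (2 * m + 2) := one_le_pow₀ (by linarith)
  have h4 : (1 : ℝ) ≤ 1 + 4 / ρ₀ ^ 2 := by
    have : 0 ≤ 4 / ρ₀ ^ 2 := by positivity
    linarith
  unfold C0
  exact one_le_mul_of_one_le_of_one_le (one_le_mul_of_one_le_of_one_le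
    (one_le_mul_of_one_le_of_one_le h1 h2) h3) h4

lemma base_bd (m : ℕ) (ρ₀ : ℝ) (hρ : 0 < ρ₀) (b₀ : ℝ) (hb : ρ₀ / 2 ≤ b₀) (hb' : b₀ ≤ 2 * ρ₀)
    (q : ℕ) (hq : q ≤ 2 * m + 2) : b₀ ^ q ≤ (1 + 2 * ρ₀) ^ (2 * m + 2) := by
  have h0 : 0 ≤ b₀ := by linarith
  calc b₀ ^ q ≤ (1 + 2 * ρ₀) ^ q := pow_le_pow_left₀ h0 (by linarith) q
    _ ≤ (1 + 2 * ρ₀) ^ (2 * m + 2) := pow_le_pow_right₀ (by linarith) hq

lemma base_inv (ρ₀ : ℝ) (hρ : 0 < ρ₀) (b₀ : ℝ) (hb : ρ₀ / 2 ≤ b₀) :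
    (b₀ ^ 2)⁻¹ ≤ 1 + 4 / ρ₀ ^ 2 := by
  have h1 : ρ₀ ^ 2 / 4 ≤ b₀ ^ 2 := by nlinarith
  have h2 : (b₀ ^ 2)⁻¹ ≤ (ρ₀ ^ 2 / 4)⁻¹ := inv_anti₀ (by positivity) h1
  have h3 : (ρ₀ ^ 2 / 4)⁻¹ = 4 / ρ₀ ^ 2 := by rw [inv_div]
  rw [h3] at h2
  linarith

/-- The scalar inequality behind the three bounds. -/
lemma C0_bd (m : ℕ) (ρ₀ : ℝ) (hρ : 0 < ρ₀) (b₀ : ℝ) (hb : ρ₀ / 2 ≤ b₀) (hb' : b₀ ≤ 2 * ρ₀)
    (q : ℕ) (hq : q ≤ 2 * m + 2) (l k : ℕ) (hk : l ≤ k + 1) :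
    2 * ((m : ℝ) + 1) * ((m : ℝ) + 2) ^ (m + 1) * (b₀ ^ q * ((b₀ ^ 2)⁻¹) ^ l) ≤
      C0 m ρ₀ ^ (k + 1) := by
  have hm : (0 : ℝ) ≤ m := Nat.cast_nonneg m
  have h0 : 0 < b₀ := by linarith
  have h1 : (1 : ℝ) ≤ 2 * ((m : ℝ) + 1) := by linarith
  have h2 : (1 : ℝ) ≤ ((m : ℝ) + 2) ^ (m + 1) := one_le_pow₀ (by linarith)
  have h3 : (1 : ℝ) ≤ (1 + 2 * ρ₀) ^ (2 * m + 2) := one_le_pow₀ (by linarith)
  have hD0 : 0 ≤ 4 / ρ₀ ^ 2 := by positivity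
  have h4 : (1 : ℝ) ≤ 1 + 4 / ρ₀ ^ 2 := by linarith
  set A : ℝ := 2 * ((m : ℝ) + 1) * ((m : ℝ) + 2) ^ (m + 1) * (1 + 2 * ρ₀) ^ (2 * m + 2) with hA
  set D : ℝ := 1 + 4 / ρ₀ ^ 2 with hD
  have hA1 : 1 ≤ A :=
    one_le_mul_of_one_le_of_one_le (one_le_mul_of_one_le_of_one_le h1 h2) h3
  have hC : C0 m ρ₀ = A * D := rfl
  have h5 : ((b₀ ^ 2)⁻¹) ^ l ≤ D ^ l :=
    pow_le_pow_left₀ (by positivity) (base_inv ρ₀ hρ b₀ hb) l
  have h6 : b₀ ^ q ≤ (1 + 2 * ρ₀) ^ (2 * m + 2) := base_bd m ρ₀ hρ b₀ hb hb' q hq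
  calc 2 * ((m : ℝ) + 1) * ((m : ℝ) + 2) ^ (m + 1) * (b₀ ^ q * ((b₀ ^ 2)⁻¹) ^ l)
      ≤ 2 * ((m : ℝ) + 1) * ((m : ℝ) + 2) ^ (m + 1) * ((1 + 2 * ρ₀) ^ (2 * m + 2) * D ^ l) :=
        mul_le_mul_of_nonneg_left (mul_le_mul h6 h5 (by positivity) (by positivity))
          (by positivity)
    _ = A * D ^ l := by rw [hA]; ring
    _ ≤ A ^ (k + 1) * D ^ (k + 1) := by
        refine mul_le_mul ?_ (pow_le_pow_right₀ h4 hk) (by positivity) (by positivity)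
        exact le_self_pow₀ hA1 (by omega)
    _ = C0 m ρ₀ ^ (k + 1) := by rw [hC]; exact (mul_pow A D (k + 1)).symm

/-- **R8a (iii)**: bound of the Taylor coefficients. -/
theorem abs_tco_le (m : ℕ) (ρ₀ : ℝ) (hρ : 0 < ρ₀) (b₀ : ℝ) (hb : ρ₀ / 2 ≤ b₀)
    (hb' : b₀ ≤ 2 * ρ₀) (q : ℕ) (hq : q ≤ 2 * m + 2) (l : ℕ) :
    |tco b₀ q l| ≤ C0 m ρ₀ ^ (l + 1) := by
  have hm : (0 : ℝ) ≤ m := Nat.cast_nonneg m
  have h0 : 0 < b₀ := by linarith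
  have hq' : (q : ℝ) ≤ 2 * m + 2 := by exact_mod_cast hq
  have hq0 : (0 : ℝ) ≤ q := Nat.cast_nonneg q
  have h1 : |bin ((q : ℝ) / 2) l| ≤ (((m + 1 : ℕ) : ℝ) + 1) ^ (m + 1) :=
    bin_le (m + 1) _ (by linarith) (by push_cast; linarith) l
  have h2 : (((m + 1 : ℕ) : ℝ) + 1) = (m : ℝ) + 2 := by push_cast; ring
  rw [h2] at h1
  refine le_trans ?_ (C0_bd m ρ₀ hρ b₀ hb hb' q hq l l (Nat.le_succ l))
  have h3 : (0 : ℝ) ≤ b₀ ^ q / (b₀ ^ 2) ^ l := by positivity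
  have h4 : b₀ ^ q / (b₀ ^ 2) ^ l = b₀ ^ q * ((b₀ ^ 2)⁻¹) ^ l := by
    rw [inv_pow]; exact div_eq_mul_inv _ _
  unfold tco
  rw [abs_mul, abs_mul, abs_pow, abs_neg, abs_one, one_pow, one_mul,
    abs_of_nonneg h3, h4]
  have h5 : (0 : ℝ) ≤ b₀ ^ q * ((b₀ ^ 2)⁻¹) ^ l := by positivity
  have h6 : (0 : ℝ) ≤ ((m : ℝ) + 2) ^ (m + 1) := by positivity
  refine mul_le_mul_of_nonneg_right ?_ h5
  nlinarith

lemma sqrt_pow_eq (X : ℝ) (hX : 0 ≤ X) (q : ℕ) : Real.sqrt X ^ q = X ^ ((q : ℝ) / 2) := by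
  rw [Real.sqrt_eq_rpow, ← Real.rpow_natCast, ← Real.rpow_mul hX]
  congr 1
  ring

lemma TT_eq (b₀ : ℝ) (h0 : 0 < b₀) (q n : ℕ) (S : ℝ) :
    TT b₀ q n S = (b₀ ^ 2) ^ ((q : ℝ) / 2) *
      ∑ l ∈ range (n + 1), bin ((q : ℝ) / 2) l * (-1) ^ l * (S / b₀ ^ 2) ^ l := by
  have h1 : (b₀ ^ 2) ^ ((q : ℝ) / 2) = b₀ ^ q := by
    rw [← sqrt_pow_eq _ (by positivity), Real.sqrt_sq h0.le]
  rw [h1, TT, Finset.mul_sum]
  refine Finset.sum_congr rfl fun l _ => ?_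
  rw [tco, div_pow]
  field_simp

lemma TT'_eq (b₀ : ℝ) (h0 : 0 < b₀) (q n : ℕ) (S : ℝ) :
    TT' b₀ q n S = -((q : ℝ) / 2) * ((b₀ ^ 2) ^ ((q : ℝ) / 2 - 1) *
      ∑ l ∈ range n, bin ((q : ℝ) / 2 - 1) l * (-1) ^ l * (S / b₀ ^ 2) ^ l) := by
  have h1 : (b₀ ^ 2) ^ ((q : ℝ) / 2 - 1) = b₀ ^ q / b₀ ^ 2 := by
    rw [Real.rpow_sub (by positivity), Real.rpow_one, ← sqrt_pow_eq _ (by positivity),
      Real.sqrt_sq h0.le]
  rw [h1, TT', Finset.mul_sum, Finset.mul_sum]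
  refine Finset.sum_congr rfl fun l _ => ?_
  have h2 := succ_mul_bin_succ ((q : ℝ) / 2) l
  rw [tco, div_pow]
  calc ((l : ℝ) + 1) * ((-1) ^ (l + 1) * bin ((q : ℝ) / 2) (l + 1) *
        (b₀ ^ q / (b₀ ^ 2) ^ (l + 1))) * S ^ l
      = (((l : ℝ) + 1) * bin ((q : ℝ) / 2) (l + 1)) * ((-1) ^ (l + 1) *
        (b₀ ^ q / (b₀ ^ 2) ^ (l + 1)) * S ^ l) := by ring
    _ = _ := by
        rw [h2]
        field_simp
        ring

/-- **R8a (i)**: the value. -/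
theorem abs_sub_TT_le (m : ℕ) (ρ₀ : ℝ) (hρ : 0 < ρ₀) (b₀ : ℝ) (hb : ρ₀ / 2 ≤ b₀)
    (hb' : b₀ ≤ 2 * ρ₀) (q : ℕ) (hq : q ≤ 2 * m + 2) (n : ℕ) (S : ℝ) (hS : 0 ≤ S)
    (hSM : S ≤ b₀ ^ 2 / 4) :
    |Real.sqrt (b₀ ^ 2 - S) ^ q - TT b₀ q n S| ≤ C0 m ρ₀ ^ (n + 1) * S ^ (n + 1) := by
  have hm : (0 : ℝ) ≤ m := Nat.cast_nonneg m
  have h0 : 0 < b₀ := by linarith
  have hM : 0 < b₀ ^ 2 := by positivity
  have hq' : (q : ℝ) ≤ 2 * m + 2 := by exact_mod_cast hq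
  have hq0 : (0 : ℝ) ≤ q := Nat.cast_nonneg q
  have h := rem_M (m + 1) ((q : ℝ) / 2) (by linarith) (by push_cast; linarith) (n + 1)
    (b₀ ^ 2) S hM hS hSM
  rw [← TT_eq b₀ h0, ← sqrt_pow_eq _ (by linarith), ← sqrt_pow_eq _ hM.le,
    Real.sqrt_sq h0.le] at h
  refine h.trans ?_
  have h2 : (((m + 1 : ℕ) : ℝ) + 1) = (m : ℝ) + 2 := by push_cast; ring
  rw [h2]
  calc 2 * ((m : ℝ) + 2) ^ (m + 1) * (b₀ ^ q * (S / b₀ ^ 2) ^ (n + 1))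
      = 2 * 1 * ((m : ℝ) + 2) ^ (m + 1) * (b₀ ^ q * ((b₀ ^ 2)⁻¹) ^ (n + 1)) * S ^ (n + 1) := by
        rw [div_pow, inv_pow]; ring
    _ ≤ 2 * ((m : ℝ) + 1) * ((m : ℝ) + 2) ^ (m + 1) * (b₀ ^ q * ((b₀ ^ 2)⁻¹) ^ (n + 1)) *
          S ^ (n + 1) := by
        gcongr
        linarith
    _ ≤ C0 m ρ₀ ^ (n + 1) * S ^ (n + 1) := by
        exact mul_le_mul_of_nonneg_right (C0_bd m ρ₀ hρ b₀ hb hb' q hq (n + 1) n le_rfl)
          (by positivity)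

/-- **R8a (ii)**: the derivative. -/
theorem abs_sub_TT'_le (m : ℕ) (ρ₀ : ℝ) (hρ : 0 < ρ₀) (b₀ : ℝ) (hb : ρ₀ / 2 ≤ b₀)
    (hb' : b₀ ≤ 2 * ρ₀) (q : ℕ) (hq : q ≤ 2 * m + 2) (n : ℕ) (S : ℝ) (hS : 0 ≤ S)
    (hSM : S ≤ b₀ ^ 2 / 4) :
    |-((q : ℝ) / 2) * (Real.sqrt (b₀ ^ 2 - S) ^ q / (b₀ ^ 2 - S)) - TT' b₀ q n S| ≤
      C0 m ρ₀ ^ (n + 1) * S ^ n := by
  have hm : (0 : ℝ) ≤ m := Nat.cast_nonneg m
  have h0 : 0 < b₀ := by linarith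
  have hM : 0 < b₀ ^ 2 := by positivity
  have hMS : 0 < b₀ ^ 2 - S := by linarith
  have hq' : (q : ℝ) ≤ 2 * m + 2 := by exact_mod_cast hq
  have hq0 : (0 : ℝ) ≤ q := Nat.cast_nonneg q
  have h := rem_M (m + 1) ((q : ℝ) / 2 - 1) (by linarith) (by push_cast; linarith) n
    (b₀ ^ 2) S hM hS hSM
  have e1 : (b₀ ^ 2 - S) ^ ((q : ℝ) / 2 - 1) = Real.sqrt (b₀ ^ 2 - S) ^ q / (b₀ ^ 2 - S) := by
    rw [Real.rpow_sub hMS, Real.rpow_one, ← sqrt_pow_eq _ hMS.le]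
  have e2 : (b₀ ^ 2) ^ ((q : ℝ) / 2 - 1) = b₀ ^ q * (b₀ ^ 2)⁻¹ := by
    rw [Real.rpow_sub hM, Real.rpow_one, ← sqrt_pow_eq _ hM.le, Real.sqrt_sq h0.le,
      div_eq_mul_inv]
  have hq2 : 0 ≤ (q : ℝ) / 2 := by positivity
  rw [TT'_eq b₀ h0, ← mul_sub, abs_mul, abs_neg, abs_of_nonneg hq2,
    ← e1]
  have h2 : (((m + 1 : ℕ) : ℝ) + 1) = (m : ℝ) + 2 := by push_cast; ring
  rw [h2] at h
  have h3 : (b₀ ^ 2) ^ ((q : ℝ) / 2 - 1) * (S / b₀ ^ 2) ^ n =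
      b₀ ^ q * ((b₀ ^ 2)⁻¹) ^ (n + 1) * S ^ n := by
    rw [e2, div_pow, inv_pow, pow_succ (b₀ ^ 2) n]
    field_simp
  rw [h3] at h
  calc (q : ℝ) / 2 * _ ≤ (q : ℝ) / 2 *
        (2 * ((m : ℝ) + 2) ^ (m + 1) * (b₀ ^ q * ((b₀ ^ 2)⁻¹) ^ (n + 1) * S ^ n)) :=
        mul_le_mul_of_nonneg_left h (by positivity)
    _ ≤ ((m : ℝ) + 1) *
        (2 * ((m : ℝ) + 2) ^ (m + 1) * (b₀ ^ q * ((b₀ ^ 2)⁻¹) ^ (n + 1) * S ^ n)) := by
        refine mul_le_mul_of_nonneg_right (by linarith) (by positivity)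
    _ = 2 * ((m : ℝ) + 1) * ((m : ℝ) + 2) ^ (m + 1) * (b₀ ^ q * ((b₀ ^ 2)⁻¹) ^ (n + 1)) *
          S ^ n := by ring
    _ ≤ C0 m ρ₀ ^ (n + 1) * S ^ n :=
        mul_le_mul_of_nonneg_right (C0_bd m ρ₀ hρ b₀ hb hb' q hq (n + 1) n le_rfl)
          (by positivity)

/-- The derivative of `S ↦ (b₀² - S)^(q/2)`. -/
lemma hasDerivAt_sqrt_pow (b₀ : ℝ) (q : ℕ) (S : ℝ) (hS : S < b₀ ^ 2) :
    HasDerivAt (fun S : ℝ => Real.sqrt (b₀ ^ 2 - S) ^ q)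
      (-((q : ℝ) / 2) * (Real.sqrt (b₀ ^ 2 - S) ^ q / (b₀ ^ 2 - S))) S := by
  have h1 : 0 < b₀ ^ 2 - S := by linarith
  have h2 : HasDerivAt (fun S : ℝ => b₀ ^ 2 - S) (-1) S := by
    simpa using (hasDerivAt_id S).const_sub (b₀ ^ 2)
  have h3 := (h2.sqrt h1.ne').pow q
  refine h3.congr_deriv ?_
  have h4 : Real.sqrt (b₀ ^ 2 - S) ≠ 0 := (Real.sqrt_pos.2 h1).ne'
  rcases q with _ | q
  · simp
  · have h5 : b₀ ^ 2 - S = Real.sqrt (b₀ ^ 2 - S) ^ 2 := (Real.sq_sqrt h1.le).symm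
    generalize Real.sqrt (b₀ ^ 2 - S) = t at h4 h5 ⊢
    rw [h5, Nat.add_sub_cancel]
    push_cast
    field_simp
    ring

/-- The derivative value when `q = r + 2`. -/
lemma der_eq_pow (b₀ : ℝ) (r : ℕ) (S : ℝ) (hS : S < b₀ ^ 2) :
    Real.sqrt (b₀ ^ 2 - S) ^ (r + 2) / (b₀ ^ 2 - S) = Real.sqrt (b₀ ^ 2 - S) ^ r := by
  have h1 : 0 < b₀ ^ 2 - S := by linarith
  rw [div_eq_iff h1.ne', pow_add, Real.sq_sqrt h1.le]

end Vale.Agent.P139.BN.Tay
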