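import Vale.Agent.P139.R2.H240.Tay
import Vale.Agent.P139.R2.H556.Ham

/-!
# P139, row R8a: Taylor scalars in the format of `H556/Ham.lean`
-/

set_option autoImplicit false

open Finset

namespace Vale.Agent.P139.BN.Tay

/-- Taylor coefficients of `S ↦ (M - S) ^ (q/2)`. -/
noncomputable def tau (M : ℝ) (q l : ℕ) : ℝ := tco (Real.sqrt M) q l

lemma tau_zero (M : ℝ) (q : ℕ) : tau M q 0 = Real.sqrt M ^ q := by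
  simp [tau, tco]

lemma tau_two_mul_zero (M : ℝ) (hM : 0 ≤ M) (m : ℕ) : tau M (2 * m) 0 = M ^ m := by
  rw [tau_zero, pow_mul, Real.sq_sqrt hM]

lemma tau_succ_one (M : ℝ) (hM : 0 < M) (m : ℕ) :
    tau M (2 * m + 2) 1 = -(((m : ℝ) + 1) * M ^ m) := by
  have h : (Real.sqrt M) ^ 2 = M := Real.sq_sqrt hM.le
  unfold tau tco
  rw [h, show 2 * m + 2 = 2 * (m + 1) by ring, pow_mul, h, bin_succ, bin_zero]
  push_cast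
  field_simp
  ring

lemma abs_tau_le (m : ℕ) (ρ₀ : ℝ) (hρ : 0 < ρ₀) (M : ℝ) (hb : ρ₀ / 2 ≤ Real.sqrt M)
    (hb' : Real.sqrt M ≤ 2 * ρ₀) (q : ℕ) (hq : q ≤ 2 * m + 2) (l : ℕ) :
    |tau M q l| ≤ C0 m ρ₀ ^ (l + 1) :=
  abs_tco_le m ρ₀ hρ _ hb hb' q hq l

lemma abs_tau_le' (m : ℕ) (ρ₀ : ℝ) (hρ : 0 < ρ₀) (M : ℝ) (hb : ρ₀ / 2 ≤ Real.sqrt M)
    (hb' : Real.sqrt M ≤ 2 * ρ₀) (q : ℕ) (hq : q ≤ 2 * m + 2) (Lt l : ℕ) (hl : l ≤ Lt) :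
    |tau M q l| ≤ C0 m ρ₀ ^ (Lt + 1) :=
  (abs_tau_le m ρ₀ hρ M hb hb' q hq l).trans
    (pow_le_pow_right₀ (one_le_C0 m ρ₀ hρ) (by omega))

lemma TT_ofReal (M : ℝ) (q Lt : ℕ) (S : ℝ) :
    R7.TT Lt (tau M) q (S : ℂ) = ((TT (Real.sqrt M) q Lt S : ℝ) : ℂ) := by
  unfold R7.TT TT tau
  push_cast
  rfl

lemma TD_ofReal (M : ℝ) (q Lt : ℕ) (S : ℝ) :
    R7.TD Lt (tau M) q (S : ℂ) = ((TT' (Real.sqrt M) q Lt S : ℝ) : ℂ) := by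
  unfold R7.TD TT' tau
  rw [Finset.sum_range_succ']
  simp only [Nat.cast_zero, zero_mul, mul_zero, add_zero, Nat.add_sub_cancel]
  push_cast
  refine Finset.sum_congr rfl fun l _ => ?_
  ring

/-- **R8a (i)** in the format of `Ham.lean`. -/
theorem norm_TT_sub_le (m : ℕ) (ρ₀ : ℝ) (hρ : 0 < ρ₀) (M : ℝ) (hb : ρ₀ / 2 ≤ Real.sqrt M)
    (hb' : Real.sqrt M ≤ 2 * ρ₀) (q : ℕ) (hq : q ≤ 2 * m + 2) (Lt : ℕ) (S b : ℝ) (hS : 0 ≤ S)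
    (hSM : S ≤ M / 4) (hb0 : 0 ≤ b) (hbS : b ^ 2 = M - S) :
    ‖R7.TT Lt (tau M) q (S : ℂ) - (b : ℂ) ^ q‖ ≤ C0 m ρ₀ ^ (Lt + 1) * S ^ (Lt + 1) := by
  have hM : 0 ≤ M := by
    by_contra hc
    rw [Real.sqrt_eq_zero_of_nonpos (by linarith)] at hb
    linarith
  have h1 : (Real.sqrt M) ^ 2 = M := Real.sq_sqrt hM
  have h2 : b = Real.sqrt (M - S) := by rw [← hbS, Real.sqrt_sq hb0]
  have h := abs_sub_TT_le m ρ₀ hρ (Real.sqrt M) hb hb' q hq Lt S hS (by rw [h1]; exact hSM)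
  rw [h1, ← h2] at h
  rw [TT_ofReal, ← Complex.ofReal_pow, ← Complex.ofReal_sub, Complex.norm_real, Real.norm_eq_abs,
    abs_sub_comm]
  exact h

/-- **R8a (ii)** in the format of `Ham.lean`. -/
theorem norm_TD_add_le (m : ℕ) (ρ₀ : ℝ) (hρ : 0 < ρ₀) (M : ℝ) (hb : ρ₀ / 2 ≤ Real.sqrt M)
    (hb' : Real.sqrt M ≤ 2 * ρ₀) (q : ℕ) (hq : q ≤ 2 * m + 2) (Lt : ℕ) (S b : ℝ) (hS : 0 ≤ S)
    (hSM : S ≤ M / 4) (hb0 : 0 ≤ b) (hbS : b ^ 2 = M - S) :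
    ‖R7.TD Lt (tau M) q (S : ℂ) + (q : ℂ) / 2 * (b : ℂ) ^ q / (b : ℂ) ^ 2‖ ≤
      C0 m ρ₀ ^ (Lt + 1) * S ^ Lt := by
  have hM : 0 ≤ M := by
    by_contra hc
    rw [Real.sqrt_eq_zero_of_nonpos (by linarith)] at hb
    linarith
  have h1 : (Real.sqrt M) ^ 2 = M := Real.sq_sqrt hM
  have h2 : b = Real.sqrt (M - S) := by rw [← hbS, Real.sqrt_sq hb0]
  have h := abs_sub_TT'_le m ρ₀ hρ (Real.sqrt M) hb hb' q hq Lt S hS (by rw [h1]; exact hSM)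
  rw [h1, ← h2, ← hbS] at h
  have h3 : R7.TD Lt (tau M) q (S : ℂ) + (q : ℂ) / 2 * (b : ℂ) ^ q / (b : ℂ) ^ 2 =
      ((-(-((q : ℝ) / 2) * (b ^ q / b ^ 2) - TT' (Real.sqrt M) q Lt S) : ℝ) : ℂ) := by
    rw [TD_ofReal]
    push_cast
    ring
  rw [h3, Complex.norm_real, Real.norm_eq_abs, abs_neg]
  exact h

end Vale.Agent.P139.BN.Tay
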